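import Vale.Agent.P220.R2.H180.Fam

/-!
# The shrinking family of an arc from `0` to `1`
-/

open Set Filter Topology
open scoped ContDiff

namespace Vale.Agent.P220.R2.H57J

open H180

/-- `c` restricted to `[0, 1]` is a smoothly embedded arc from `0` to `1`. -/
structure IsArcQ (c : ℝ → ℂ) : Prop where
  smooth : ContDiff ℝ ∞ c
  zero : c 0 = 0
  one : c 1 = 1
  inj : ∀ x ∈ Icc (0 : ℝ) 1, ∀ y ∈ Icc (0 : ℝ) 1, c x = c y → x = y
  imm : ∀ x ∈ Icc (0 : ℝ) 1, deriv c x ≠ 0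

/-- The family of arcs from `c(0)` to `c(s)`, normalized, and square roots of
`C / τ` and `(1 - C) / (1 - τ)`. -/
structure IsFamQ (c : ℝ → ℂ) (C b₁ b₂ : ℝ × ℝ → ℂ) : Prop where
  hC : ContDiff ℝ ∞ C
  hb1 : ContDiff ℝ ∞ b₁
  hb2 : ContDiff ℝ ∞ b₂
  rel1 : ∀ s, ∀ τ ∈ Icc (0 : ℝ) 1, (1 - τ) * b₁ (s, τ) ^ 2 = 1 - C (s, τ)
  rel2 : ∀ s, ∀ τ ∈ Icc (0 : ℝ) 1, τ * b₂ (s, τ) ^ 2 = C (s, τ)
  bne1 : ∀ s, ∀ τ ∈ Icc (0 : ℝ) 1, b₁ (s, τ) ≠ 0
  bne2 : ∀ s, ∀ τ ∈ Icc (0 : ℝ) 1, b₂ (s, τ) ≠ 0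
  inj : ∀ s, ∀ x ∈ Icc (0 : ℝ) 1, ∀ y ∈ Icc (0 : ℝ) 1, C (s, x) = C (s, y) → x = y
  imm : ∀ s, ∀ x ∈ Icc (0 : ℝ) 1, deriv (fun t => C (s, t)) x ≠ 0
  b10 : ∀ τ ∈ Icc (0 : ℝ) 1, b₁ (0, τ) = 1
  b20 : ∀ τ ∈ Icc (0 : ℝ) 1, b₂ (0, τ) = 1
  C1 : ∀ τ, C (1, τ) = c τ

theorem IsArcQ.hc_ne {c : ℝ → ℂ} (h : IsArcQ c) {x y : ℝ} (hx : x ∈ Icc (0 : ℝ) 1)
    (hy : y ∈ Icc (0 : ℝ) 1) : hc c (x, y) ≠ 0 := by
  rcases eq_or_ne x y with h1 | h1
  · subst h1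
    rw [hc_diag h.smooth]
    exact h.imm x hx
  · intro h2
    have h3 := hc_mul h.smooth x y
    rw [h2, mul_zero, sub_eq_zero] at h3
    exact h1 (h.inj x hx y hy h3.symm)

/-- a square root of one that starts at one is one -/
theorem eq_one_of_sq {b : ℝ × ℝ → ℂ} (hbs : ContDiff ℝ ∞ b) (h00 : b (0, 0) = 1)
    (hb0 : ∀ τ ∈ Icc (0 : ℝ) 1, b (0, τ) ^ 2 = 1) : ∀ τ ∈ Icc (0 : ℝ) 1, b (0, τ) = 1 := by
  intro τ hτ
  rcases sq_eq_sq_iff_eq_or_eq_neg.1 ((hb0 τ hτ).trans (one_pow 2).symm) with h1 | h1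
  · exact h1
  · exfalso
    have hcont : Continuous fun t : ℝ => (b (0, t)).re :=
      Complex.continuous_re.comp (hbs.continuous.comp (by fun_prop))
    have hiv := intermediate_value_Icc' hτ.1 hcont.continuousOn
    have hmem : (0 : ℝ) ∈ Icc (b (0, τ)).re (b (0, 0)).re := by
      rw [h00, h1]
      simp
    obtain ⟨t, ht, ht0⟩ := hiv hmem
    beta_reduce at ht0
    have h3 := hb0 t ⟨ht.1, ht.2.trans hτ.2⟩
    rcases sq_eq_sq_iff_eq_or_eq_neg.1 (h3.trans (one_pow 2).symm) with h4 | h4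
    · rw [h4] at ht0
      simp at ht0
    · rw [h4] at ht0
      simp at ht0

theorem IsArcQ.exists_fam {c : ℝ → ℂ} (h : IsArcQ c) : ∃ C b₁ b₂, IsFamQ c C b₁ b₂ := by
  set β : ℝ → ℝ := Real.smoothTransition with hβ
  have hβs : ContDiff ℝ ∞ β := Real.smoothTransition.contDiff
  have hβ1 : ∀ s, β s ∈ Icc (0 : ℝ) 1 := fun s =>
    ⟨Real.smoothTransition.nonneg _, Real.smoothTransition.le_one _⟩
  have hβ0 : β 0 = 0 := Real.smoothTransition.zero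
  have hβ11 : β 1 = 1 := Real.smoothTransition.one
  have hmul : ∀ τ ∈ Icc (0 : ℝ) 1, ∀ β' ∈ Icc (0 : ℝ) 1, β' * τ ∈ Icc (0 : ℝ) 1 :=
    fun τ hτ β' hβ' => ⟨mul_nonneg hβ'.1 hτ.1, mul_le_one₀ hβ'.2 hτ.1 hτ.2⟩
  have h0 : (0 : ℝ) ∈ Icc (0 : ℝ) 1 := by simp
  have hΔ := hc_smooth h.smooth
  have hne : ∀ s, hc c (0, β s) ≠ 0 := fun s => h.hc_ne h0 (hβ1 s)
  -- the square roots
  set N₁ : ℝ × ℝ → ℂ := fun x => hc c (x.1 * x.2, x.1) * hc c (0, x.1) with hN1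
  set N₂ : ℝ × ℝ → ℂ := fun x => hc c (0, x.1 * x.2) * hc c (0, x.1) with hN2
  have hN3 : ContDiff ℝ ∞ fun x : ℝ × ℝ => hc c (0, x.1) :=
    hΔ.comp (contDiff_const.prodMk contDiff_fst)
  have hN1s : ContDiff ℝ ∞ N₁ :=
    (hΔ.comp ((contDiff_fst.mul contDiff_snd).prodMk contDiff_fst)).mul hN3
  have hN2s : ContDiff ℝ ∞ N₂ :=
    (hΔ.comp (contDiff_const.prodMk (contDiff_fst.mul contDiff_snd))).mul hN3
  have hN1ne : ∀ x ∈ Icc (0 : ℝ) 1 ×ˢ Icc (0 : ℝ) 1, N₁ x ≠ 0 := by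
    intro x hx
    have h1 := hmul _ hx.2 _ hx.1
    exact mul_ne_zero (h.hc_ne h1 hx.1) (h.hc_ne h0 hx.1)
  have hN2ne : ∀ x ∈ Icc (0 : ℝ) 1 ×ˢ Icc (0 : ℝ) 1, N₂ x ≠ 0 := by
    intro x hx
    have h1 := hmul _ hx.2 _ hx.1
    exact mul_ne_zero (h.hc_ne h0 h1) (h.hc_ne h0 hx.1)
  obtain ⟨n₁, hn1, hn10, hn12⟩ := exists_sqrt hN1s hN1ne (n₀ := hc c (0, 0)) (by simp [hN1, sq])
  obtain ⟨n₂, hn2, hn20, hn22⟩ := exists_sqrt hN2s hN2ne (n₀ := hc c (0, 0)) (by simp [hN2, sq])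
  set D : ℝ × ℝ → ℂ := fun x => (hc c (0, β x.1))⁻¹ with hD
  have hDs : ContDiff ℝ ∞ D :=
    (hΔ.comp (contDiff_const.prodMk (hβs.comp contDiff_fst))).inv (fun x => hne x.1)
  set C : ℝ × ℝ → ℂ := fun x => (x.2 : ℂ) * hc c (0, β x.1 * x.2) * D x with hC
  set b₁ : ℝ × ℝ → ℂ := fun x => n₁ (β x.1, x.2) * D x with hb1
  set b₂ : ℝ × ℝ → ℂ := fun x => n₂ (β x.1, x.2) * D x with hb2
  have hCs : ContDiff ℝ ∞ C := by
    have h1 : ContDiff ℝ ∞ fun x : ℝ × ℝ => (x.2 : ℂ) :=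
      Complex.ofRealCLM.contDiff.comp contDiff_snd
    have h2 : ContDiff ℝ ∞ fun x : ℝ × ℝ => hc c (0, β x.1 * x.2) :=
      hΔ.comp (contDiff_const.prodMk ((hβs.comp contDiff_fst).mul contDiff_snd))
    exact (h1.mul h2).mul hDs
  have hb1s : ContDiff ℝ ∞ b₁ :=
    (hn1.comp ((hβs.comp contDiff_fst).prodMk contDiff_snd)).mul hDs
  have hb2s : ContDiff ℝ ∞ b₂ :=
    (hn2.comp ((hβs.comp contDiff_fst).prodMk contDiff_snd)).mul hDs
  have hdiff : ∀ s x y, C (s, x) = C (s, y) + ((x - y : ℝ) : ℂ) * (hc c (β s * y, β s * x) *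
      D (s, 0)) := by
    intro s x y
    have h1 := hc_key h.smooth (β s) x y
    simp only [hC, hD]
    push_cast
    linear_combination ((hc c (0, β s))⁻¹) * h1
  have hD1 : ∀ s t, hc c (0, β s) * D (s, t) = 1 := fun s t => mul_inv_cancel₀ (hne s)
  have hDne : ∀ s t, D (s, t) ≠ 0 := fun s t => inv_ne_zero (hne s)
  have hb12 : ∀ s, ∀ τ ∈ Icc (0 : ℝ) 1, b₁ (s, τ) ^ 2 =
      hc c (β s * τ, β s) * D (s, τ) := by
    intro s τ hτ
    simp only [hb1, mul_pow]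
    rw [hn12 (β s, τ) ⟨hβ1 s, hτ⟩]
    have h2 := hD1 s τ
    simp only [hN1]
    linear_combination (hc c (β s * τ, β s) * D (s, τ)) * h2
  have hb22 : ∀ s, ∀ τ ∈ Icc (0 : ℝ) 1, b₂ (s, τ) ^ 2 =
      hc c (0, β s * τ) * D (s, τ) := by
    intro s τ hτ
    simp only [hb2, mul_pow]
    rw [hn22 (β s, τ) ⟨hβ1 s, hτ⟩]
    have h2 := hD1 s τ
    simp only [hN2]
    linear_combination (hc c (0, β s * τ) * D (s, τ)) * h2
  refine ⟨C, b₁, b₂, hCs, hb1s, hb2s, ?_, ?_, ?_, ?_, ?_, ?_, ?_, ?_, ?_⟩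
  · intro s τ hτ
    rw [hb12 s τ hτ]
    have h1 := hc_key h.smooth (β s) 1 τ
    have h2 := hD1 s τ
    rw [mul_one] at h1
    have h3 : C (s, τ) = (τ : ℂ) * hc c (0, β s * τ) * D (s, τ) := rfl
    rw [h3]
    push_cast at h1
    linear_combination (-D (s, τ)) * h1 + h2
  · intro s τ hτ
    rw [hb22 s τ hτ]
    have h3 : C (s, τ) = (τ : ℂ) * hc c (0, β s * τ) * D (s, τ) := rfl
    rw [h3]
    ring
  · intro s τ hτ h1
    have h2 := hb12 s τ hτ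
    rw [h1] at h2
    have h3 := mul_ne_zero (h.hc_ne (hmul τ hτ _ (hβ1 s)) (hβ1 s)) (hDne s τ)
    rw [← h2] at h3
    simp at h3
  · intro s τ hτ h1
    have h2 := hb22 s τ hτ
    rw [h1] at h2
    have h3 := mul_ne_zero (h.hc_ne h0 (hmul τ hτ _ (hβ1 s))) (hDne s τ)
    rw [← h2] at h3
    simp at h3
  · intro s x hx y hy h1
    have h2 := hdiff s x y
    rw [h1, left_eq_add, mul_eq_zero] at h2
    rcases h2 with h2 | h2
    · have : x - y = 0 := by exact_mod_cast h2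
      linarith
    · exfalso
      have h3 := h.hc_ne (hmul y hy _ (hβ1 s)) (hmul x hx _ (hβ1 s))
      exact mul_ne_zero h3 (hDne s 0) h2
  · intro s x hx
    have h1 : HasDerivAt (fun t : ℝ => C (s, x) + ((t - x : ℝ) : ℂ) *
        (hc c (β s * x, β s * t) * D (s, 0))) (hc c (β s * x, β s * x) * D (s, 0)) x := by
      have d1 : HasDerivAt (fun t : ℝ => ((t - x : ℝ) : ℂ)) 1 x := by
        have := ((hasDerivAt_id x).sub_const x).ofReal_comp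
        simpa using this
      have d2 : DifferentiableAt ℝ (fun t : ℝ => hc c (β s * x, β s * t) * D (s, 0)) x := by
        have : ContDiff ℝ ∞ (fun t : ℝ => hc c (β s * x, β s * t) * D (s, 0)) :=
          (hΔ.comp (contDiff_const.prodMk
            (contDiff_const.mul contDiff_id))).mul contDiff_const
        exact this.differentiable (by simp) x
      have d3 := (d1.mul d2.hasDerivAt).const_add (C (s, x))
      simpa using d3
    have h2 : (fun t => C (s, t)) = fun t : ℝ => C (s, x) + ((t - x : ℝ) : ℂ) *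
        (hc c (β s * x, β s * t) * D (s, 0)) := funext fun t => hdiff s t x
    rw [h2, h1.deriv]
    have h3 := h.hc_ne (hmul x hx _ (hβ1 s)) (hmul x hx _ (hβ1 s))
    exact mul_ne_zero h3 (hDne s 0)
  · refine eq_one_of_sq hb1s ?_ ?_
    · have : b₁ (0, 0) = n₁ (β 0, 0) * D (0, 0) := rfl
      rw [this, hβ0, hn10]
      have h2 := hD1 0 0
      rwa [hβ0] at h2
    · intro τ hτ
      rw [hb12 0 τ hτ]
      have h2 := hD1 0 τ
      rw [hβ0] at h2 ⊢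
      rw [zero_mul]
      exact h2
  · refine eq_one_of_sq hb2s ?_ ?_
    · have : b₂ (0, 0) = n₂ (β 0, 0) * D (0, 0) := rfl
      rw [this, hβ0, hn20]
      have h2 := hD1 0 0
      rwa [hβ0] at h2
    · intro τ hτ
      rw [hb22 0 τ hτ]
      have h2 := hD1 0 τ
      rw [hβ0] at h2 ⊢
      rw [zero_mul]
      exact h2
  · intro τ
    have h2 := hD1 1 τ
    have h3 : C (1, τ) = (τ : ℂ) * hc c (0, β 1 * τ) * D (1, τ) := rfl
    rw [h3]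
    rw [hβ11, one_mul]
    rw [hβ11] at h2
    have h4 := hc_mul h.smooth 0 1
    have h5 := hc_mul h.smooth 0 τ
    rw [h.zero, h.one] at h4
    rw [h.zero] at h5
    push_cast at h4 h5
    have h6 : hc c (0, 1) = 1 := by linear_combination -h4
    rw [h6] at h2
    linear_combination -h5 + (τ : ℂ) * hc c (0, τ) * h2

end Vale.Agent.P220.R2.H57J
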